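import Vale.Agent.Lib.P154.PChain.BG.C0

set_option linter.all false

namespace Vale.Agent.Lib.P154.PChain.BG.S0

open Vale.Agent.Lib.P154.Chain

set_option maxRecDepth 10000000 in
theorem start_ok : cp0 = 2 ^ g.bw * vPacked vl := by
  decide +kernel

end Vale.Agent.Lib.P154.PChain.BG.S0
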