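import Vale.Agent.Lib.P154.PChain.BG.C4

set_option linter.all false

namespace Vale.Agent.Lib.P154.PChain.BG.S4

open Vale.Agent.Lib.P154.Chain

set_option maxRecDepth 10000000 in
def run_ok0 : runP g l2 (vPacked vl) wp Tp Tx Te Tz 3 cp0 = rc0 := by
  decide +kernel

set_option maxRecDepth 10000000 in
def run_ok1 : runP g l2 (vPacked vl) wp Tp Tx Te Tz 3 rc0 = rc1 := by
  decide +kernel

set_option maxRecDepth 10000000 in
def run_ok2 : runP g l2 (vPacked vl) wp Tp Tx Te Tz 3 rc1 = rc2 := by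
  decide +kernel

set_option maxRecDepth 10000000 in
def run_ok3 : runP g l2 (vPacked vl) wp Tp Tx Te Tz 3 rc2 = rc3 := by
  decide +kernel

set_option maxRecDepth 10000000 in
def run_ok4 : runP g l2 (vPacked vl) wp Tp Tx Te Tz 2 rc3 = rc4 := by
  decide +kernel

end Vale.Agent.Lib.P154.PChain.BG.S4
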